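import Vale.Agent.P069.Space

namespace Vale.Agent.Results.P069.Counterexample

open Vale.Agent.P069

/-- There is an infinite-dimensional reflexive real Banach space with an equivalent AMUC norm
and with no equivalent AUC norm. -/
theorem result : ∃ (X : Type) (_ : NormedAddCommGroup X) (_ : NormedSpace ℝ X),
    CompleteSpace X ∧ ¬ FiniteDimensional ℝ X ∧ IsReflexiveSpace X ∧
      (∃ N : Seminorm ℝ X, IsEquivNorm N ∧ IsAMUC N) ∧
      ¬ ∃ N : Seminorm ℝ X, IsEquivNorm N ∧ IsAUC N := by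
  have h1 : IsEquivNorm (normSeminorm ℝ Sp) := ⟨1, 1, one_pos, fun x => by simp⟩
  refine ⟨Sp, inferInstance, inferInstance, inferInstance, fun hfin => ?_, reflexive_Sp,
    ⟨_, h1, amuc⟩, fun ⟨N, hN, hA⟩ => not_auc N hN hA⟩
  refine not_auc _ h1 fun t _ => ?_
  refine lt_of_lt_of_le EReal.zero_lt_top (le_iInf₂ fun x _ => ?_)
  refine le_iSup₂_of_le ⊥ ⟨by simp, inferInstance⟩ (le_iInf₂ fun y hy => le_iInf fun h => ?_)
  rw [Submodule.mem_bot] at hy
  simp [hy] at h

end Vale.Agent.Results.P069.Counterexample
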